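import Vale.Agent.P130.Bridge

/-!
# P130: a transformation with Lebesgue spectrum of finite multiplicity (in particular, with simple
Lebesgue spectrum) has no two nontrivial independent factors
-/

namespace Vale.Agent.Results.P130.IndependentFactors

open MeasureTheory ProbabilityTheory Vale.P130

/-- Let `T` be an invertible measure preserving transformation of a probability space and `k` a
natural number.  (1) Lebesgue spectrum of multiplicity `k` implies `ACSpectrum μ T k`.
(2) If `ACSpectrum μ T k`, then of any two independent `T`-invariant sub-σ-algebras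
(factors) one is trivial. -/
theorem result {Ω : Type*} [mΩ : MeasurableSpace Ω] (μ : Measure Ω) [IsProbabilityMeasure μ]
    (T : Ω ≃ᵐ Ω) (hT : MeasurePreserving T μ μ) (k : ℕ) :
    (LebesgueSpec μ T k → ACSpectrum μ T k) ∧
    (ACSpectrum μ T k → ∀ A B : MeasurableSpace Ω, IsFac T A → IsFac T B →
      Indep A B μ → TrivialF μ A ∨ TrivialF μ B) := by
  refine ⟨leb_ac T hT k, fun hk => ?_⟩
  have h1 := ac_of T hT k hk
  intro A B hA hB hAB
  exact main A B T hT k h1 hA.1 hB.1 hA.2 hB.2 hAB

end Vale.Agent.Results.P130.IndependentFactors
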